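import Vale.Agent.P084.Defs
import Vale.Agent.P084.CombDefs
import Vale.Agent.P084.CombExist
import Vale.Agent.P084.Poly.CombDefs2
import Vale.Agent.P084.Poly.CombMain
import Vale.Agent.P084.Poly.CombEx
import Vale.Agent.P084.TsiDefs
import Vale.Agent.P084.Tsi
import Vale.Agent.P084.TsiExist

namespace Vale.Agent.Results.P084.A1_CombTsirelson

open Vale.Agent.P084

universe u v w

/-- (A) For every compact hereditary family `𝓕` of finite subsets of an arbitrary index set `ι`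
(with at least two elements), the real combinatorial Banach space `X_𝓕` exists and has the
Mazur-Ulam property.  (B) For every family `𝓢` of finite sets of positive integers that contains
all singletons and in which `{1}` is the only member containing `1`, and every `0 ≤ θ < 1`, the
Tsirelson type space `T[θ, 𝓢]` exists and has the Mazur-Ulam property.  (C) The classical Schreier
family satisfies the assumptions of (A) and of (B). -/
theorem result :
    (∀ (ι : Type u) [Nontrivial ι] (𝓕 : Set (Finset ι)), IsCompactFamily 𝓕 →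
      (∃ (X : Type u) (_ : NormedAddCommGroup X) (_ : NormedSpace ℝ X) (e : ι → X),
        CompleteSpace X ∧ IsCombSystem 𝓕 1 e) ∧
      ∀ (X : Type v) [NormedAddCommGroup X] [NormedSpace ℝ X] (e : ι → X),
        IsCombSystem 𝓕 1 e → MazurUlamProperty.{v, w} X) ∧
    (∀ (𝓢 : Set (Finset ℕ+)) (θ : ℝ), (∀ i : ℕ+, {i} ∈ 𝓢) → (∀ F ∈ 𝓢, (1 : ℕ+) ∈ F → F = {1}) →
      0 ≤ θ → θ < 1 →
      (∃ (X : Type) (_ : NormedAddCommGroup X) (_ : NormedSpace ℝ X) (e : ℕ+ → X),
        CompleteSpace X ∧ IsTsirelsonSystem 𝓢 θ e) ∧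
      ∀ (X : Type v) [NormedAddCommGroup X] [NormedSpace ℝ X] (e : ℕ+ → X),
        IsTsirelsonSystem 𝓢 θ e → MazurUlamProperty.{v, w} X) ∧
    (IsCompactFamily {F : Finset ℕ+ | ∀ i ∈ F, F.card ≤ (i : ℕ)} ∧
      ∀ F ∈ {F : Finset ℕ+ | ∀ i ∈ F, F.card ≤ (i : ℕ)}, (1 : ℕ+) ∈ F → F = {1}) :=
  ⟨fun ι _ 𝓕 h𝓕 =>
    ⟨exists_combSystem 𝓕 1 ⟨_, h𝓕.single (Classical.arbitrary ι)⟩ le_rfl,
      fun _ _ _ e he => comb_poly_mup 𝓕 h𝓕 e he⟩,
   fun 𝓢 θ hs h1 hθ0 hθ1 =>
    ⟨exists_tsirelsonSystem 𝓢 θ hθ0 hθ1.le,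
      fun _ _ _ e he => tsirelson_mup 𝓢 h1 hs hθ0 hθ1 e he⟩,
   isCompactFamily_schreier, fun F hF h1 => by
    have hc : F.card ≤ 1 := by simpa using hF 1 h1
    exact Finset.eq_singleton_iff_unique_mem.mpr
      ⟨h1, fun x hx => Finset.card_le_one.mp hc x hx 1 h1⟩⟩

end Vale.Agent.Results.P084.A1_CombTsirelson
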