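import Vale.Agent.P084.Defs
import Vale.Agent.P084.CombDefs
import Vale.Agent.P084.CombDefsC
import Vale.Agent.P084.Comb2
import Vale.Agent.P084.CombExist
import Vale.Agent.P084.SchreierOne
import Vale.Agent.P084.CombC
import Vale.Agent.P084.CombExistC
import Vale.Agent.P084.Tsi

namespace Vale.Agent.Results.P084.A2_SchreierRealComplex

open Vale.Agent.P084

universe v w

/-- The classical Schreier family is a generalized Schreier family, and for every generalized
Schreier family `𝓕` and every `p ≥ 1` the real and the complex (`p`-convexified) Schreier spaces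
of `𝓕` exist as Banach spaces and have the Mazur-Ulam property (the complex space being regarded
as a real space). -/
theorem result :
    IsSchreierFamily {F : Finset ℕ+ | ∀ i ∈ F, F.card ≤ (i : ℕ)} ∧
    ∀ (𝓕 : Set (Finset ℕ+)), IsSchreierFamily 𝓕 → ∀ p : ℝ, 1 ≤ p →
      ((∃ (X : Type) (_ : NormedAddCommGroup X) (_ : NormedSpace ℝ X) (e : ℕ+ → X),
          CompleteSpace X ∧ IsCombSystem 𝓕 p e) ∧
        ∀ (X : Type v) [NormedAddCommGroup X] [NormedSpace ℝ X] (e : ℕ+ → X),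
          IsCombSystem 𝓕 p e → MazurUlamProperty.{v, w} X) ∧
      ((∃ (X : Type) (_ : NormedAddCommGroup X) (_ : NormedSpace ℂ X) (e : ℕ+ → X),
          CompleteSpace X ∧ IsCombSystemC 𝓕 p e) ∧
        ∀ (X : Type v) [NormedAddCommGroup X] [NormedSpace ℂ X] (e : ℕ+ → X),
          IsCombSystemC 𝓕 p e → MazurUlamProperty.{v, w} X) :=
  ⟨classical_isSchreier, fun 𝓕 h𝓕 p hp =>
    ⟨⟨exists_combSystem 𝓕 p ⟨_, h𝓕.iso_one.1⟩ hp,
      fun _ _ _ e he => comb_mup 𝓕 hp 1 h𝓕.iso_one.1 h𝓕.iso_one.2 e he⟩,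
     ⟨exists_combSystemC 𝓕 p ⟨_, h𝓕.iso_one.1⟩ hp,
      fun _ _ _ e he => comb_mup_c 𝓕 hp 1 h𝓕.iso_one.1 h𝓕.iso_one.2 2 (by decide)
        (h𝓕.singleton_mem 2) e he⟩⟩⟩

end Vale.Agent.Results.P084.A2_SchreierRealComplex
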