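import Vale.Agent.P084.Defs
import Vale.Agent.P084.CylMain
import Vale.Agent.P084.ScInst
import Vale.Agent.P084.L1d
import Vale.Agent.P084.Transfer

namespace Vale.Agent.Results.P084.A3_Sums

open Vale.Agent.P084

universe u v w

/-- Sums with an ARBITRARY normed space `F`.  (1) `E ⊕_∞ F` has the Mazur-Ulam property for every
nonzero strictly convex space `E` and every nonzero `F`.  (2) The `ℓ_∞`-sum `ℝ ⊕_∞ F` has it for
every `F`.  (3) The `ℓ₁`-sum `ℝ ⊕₁ F` has it for every `F`.  (4) The Mazur-Ulam property passes to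
linearly isometric copies. -/
theorem result :
    (∀ (E : Type u) (F : Type v) [NormedAddCommGroup E] [NormedSpace ℝ E]
      [NormedAddCommGroup F] [NormedSpace ℝ F] [StrictConvexSpace ℝ E] [Nontrivial E]
      [Nontrivial F],
      (∀ z : E × F, ‖z‖ = max ‖z.1‖ ‖z.2‖) ∧
      MazurUlamProperty.{max u v, w} (E × F)) ∧
    (∀ (F : Type v) [NormedAddCommGroup F] [NormedSpace ℝ F],
      (∀ z : ℝ × F, ‖z‖ = max |z.1| ‖z.2‖) ∧
      MazurUlamProperty.{v, w} (ℝ × F)) ∧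
    (∀ (F : Type v) [NormedAddCommGroup F] [NormedSpace ℝ F],
      (∀ z : WithLp 1 (ℝ × F), ‖z‖ = |z.fst| + ‖z.snd‖) ∧
      MazurUlamProperty.{v, w} (WithLp 1 (ℝ × F))) ∧
    (∀ (X' : Type u) (X : Type v) [NormedAddCommGroup X'] [NormedSpace ℝ X']
      [NormedAddCommGroup X] [NormedSpace ℝ X], (X' ≃ₗᵢ[ℝ] X) →
      MazurUlamProperty.{u, w} X' → MazurUlamProperty.{v, w} X) :=
  ⟨fun E F _ _ _ _ _ _ _ => ⟨fun z => Prod.norm_def z, sc_mup' E F⟩,
    fun F _ _ => ⟨fun z => nrm z.1 z.2, cyl_mup F⟩,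
    fun F _ _ => ⟨fun z => nrm1 z.fst z.snd, l1_mup F⟩,
    fun _ _ _ _ _ _ Φ h => mup_transfer Φ h⟩

end Vale.Agent.Results.P084.A3_Sums
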