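import Vale.Agent.Results.P084.A0_Polyhedral
import Vale.Agent.Results.P084.A1_CombTsirelson
import Vale.Agent.Results.P084.A2_SchreierRealComplex
import Vale.Agent.Results.P084.A3_Sums
import Vale.Agent.P084.M1.E
import Vale.Agent.P084.U.Nice
import Vale.Agent.P084.V.Two
import Vale.Agent.P084.V.FinDim

namespace Vale.Agent.Results.P084.A00000_Combined4

open Vale.Agent.P084

universe u v w

/-- Classes of spaces with the Mazur-Ulam property.
(1) polyhedral spaces (`PolyLike`); (2) normed subspaces of `c₀(Γ)`; (3) Tsirelson type spaces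
`T[θ, 𝓢]`; (4) real and complex Schreier spaces of all generalized Schreier families and their
`p`-convexifications; (5) `E ⊕_∞ F` with `F` arbitrary and `E` a `NiceSummand` (strictly convex, or
two-dimensional, or polyhedral, or with dense rotund and flat unit vectors, or with a norming
family of functionals whose faces are proximinal in the sharp sense) or `E = C(K)`; also `E ⊕_∞ F`
with `E` and `F` both finite-dimensional;
(6) `E ⊕₁ F` with `E` strictly convex and `F` arbitrary; (7) linearly isometric copies. -/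
theorem result :
    (∀ (Z : Type v) [NormedAddCommGroup Z] [NormedSpace ℝ Z], PolyLike Z →
      MazurUlamProperty.{v, w} Z) ∧
    (∀ (Γ : Type u) (Z : Type v) [NormedAddCommGroup Z] [NormedSpace ℝ Z]
      (φ : Γ → Z →L[ℝ] ℝ),
      (∀ x : Z, IsLUB (Set.range fun γ => |φ γ x|) ‖x‖) →
      (∀ x : Z, ∀ ε : ℝ, 0 < ε → {γ | ε ≤ |φ γ x|}.Finite) →
      MazurUlamProperty.{v, w} Z) ∧
    (∀ (𝓢 : Set (Finset ℕ+)) (θ : ℝ), (∀ i : ℕ+, {i} ∈ 𝓢) → (∀ F ∈ 𝓢, (1 : ℕ+) ∈ F → F = {1}) →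
      0 ≤ θ → θ < 1 →
      (∃ (X : Type) (_ : NormedAddCommGroup X) (_ : NormedSpace ℝ X) (e : ℕ+ → X),
        CompleteSpace X ∧ IsTsirelsonSystem 𝓢 θ e) ∧
      ∀ (X : Type v) [NormedAddCommGroup X] [NormedSpace ℝ X] (e : ℕ+ → X),
        IsTsirelsonSystem 𝓢 θ e → MazurUlamProperty.{v, w} X) ∧
    (IsSchreierFamily {F : Finset ℕ+ | ∀ i ∈ F, F.card ≤ (i : ℕ)} ∧
    ∀ (𝓕 : Set (Finset ℕ+)), IsSchreierFamily 𝓕 → ∀ p : ℝ, 1 ≤ p →
      ((∃ (X : Type) (_ : NormedAddCommGroup X) (_ : NormedSpace ℝ X) (e : ℕ+ → X),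
          CompleteSpace X ∧ IsCombSystem 𝓕 p e) ∧
        ∀ (X : Type v) [NormedAddCommGroup X] [NormedSpace ℝ X] (e : ℕ+ → X),
          IsCombSystem 𝓕 p e → MazurUlamProperty.{v, w} X) ∧
      ((∃ (X : Type) (_ : NormedAddCommGroup X) (_ : NormedSpace ℂ X) (e : ℕ+ → X),
          CompleteSpace X ∧ IsCombSystemC 𝓕 p e) ∧
        ∀ (X : Type v) [NormedAddCommGroup X] [NormedSpace ℂ X] (e : ℕ+ → X),
          IsCombSystemC 𝓕 p e → MazurUlamProperty.{v, w} X)) ∧
    (∀ (E : Type u) (F : Type v) [NormedAddCommGroup E] [NormedSpace ℝ E]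
      [NormedAddCommGroup F] [NormedSpace ℝ F] [Nontrivial E] [Nontrivial F],
      (∀ z : E × F, ‖z‖ = max ‖z.1‖ ‖z.2‖) ∧
      (NiceSummand E → MazurUlamProperty.{max u v, w} (E × F)) ∧
      (FiniteDimensional ℝ E → FiniteDimensional ℝ F →
        MazurUlamProperty.{max u v, w} (E × F)) ∧
      (∀ z : WithLp 1 (E × F), ‖z‖ = ‖z.fst‖ + ‖z.snd‖) ∧
      (StrictConvexSpace ℝ E → MazurUlamProperty.{max u v, w} (WithLp 1 (E × F)))) ∧
    (∀ (K : Type u) [TopologicalSpace K] [CompactSpace K] [Nonempty K]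
      (F : Type v) [NormedAddCommGroup F] [NormedSpace ℝ F] [Nontrivial F],
      MazurUlamProperty.{max u v, w} (C(K, ℝ) × F)) ∧
    (∀ (X' : Type u) (X : Type v) [NormedAddCommGroup X'] [NormedSpace ℝ X']
      [NormedAddCommGroup X] [NormedSpace ℝ X], (X' ≃ₗᵢ[ℝ] X) →
      MazurUlamProperty.{u, w} X' → MazurUlamProperty.{v, w} X) :=
  ⟨fun Z _ _ h => polyLike_mup Z h,
    A0_Polyhedral.result.{u, v, w}.2.2.2,
    A1_CombTsirelson.result.{u, v, w}.2.1, A2_SchreierRealComplex.result.{v, w},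
    fun E F _ _ _ _ _ _ => ⟨fun z => Prod.norm_def z, fun h => nice_mup E F h,
      fun _ _ => inner_mup E F innerDense_of_finiteDimensional innerDense_of_finiteDimensional,
      fun z => nrm2 z.fst z.snd, fun _ => l1sc_mup E F⟩,
    fun K _ _ _ F _ _ _ => ck_mup K F,
    A3_Sums.result.{u, v, w}.2.2.2⟩

end Vale.Agent.Results.P084.A00000_Combined4
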