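import Vale.Agent.Results.P084.A0_Polyhedral

namespace Vale.Agent.Results.P084.A0000_Polyhedral

open Vale.Agent.P084

universe u v w

/-- Every polyhedral Banach space has the Mazur-Ulam property (infinite-dimensional Kadets-Martin
theorem with arbitrary target).
(1) Klee's definition: the unit ball of every finite-dimensional subspace is a polytope.
(2) It suffices that every two-dimensional subspace is polygonal.
(3) Without completeness: a normed space whose norm is the supremum of functionals `φ i` such that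
at each unit vector `x` only finitely many `φ i` take the value `1` and the others are bounded
away from `1`.
(4) In particular every normed space that embeds linearly and isometrically into some `c₀(Γ)`. -/
theorem result :
    (∀ (Z : Type v) [NormedAddCommGroup Z] [NormedSpace ℝ Z] [CompleteSpace Z],
      (∀ E : Submodule ℝ Z, FiniteDimensional ℝ E →
        ∃ s : Finset Z, convexHull ℝ (s : Set Z) = Metric.closedBall 0 1 ∩ (E : Set Z)) →
      MazurUlamProperty.{v, w} Z) ∧
    (∀ (Z : Type v) [NormedAddCommGroup Z] [NormedSpace ℝ Z] [CompleteSpace Z],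
      (∀ x y : Z, ∃ s : Finset (Z →L[ℝ] ℝ), ∀ a b : ℝ,
        IsGreatest ((fun φ : Z →L[ℝ] ℝ => φ (a • x + b • y)) '' (s : Set (Z →L[ℝ] ℝ)))
          ‖a • x + b • y‖) →
      MazurUlamProperty.{v, w} Z) ∧
    (∀ (ι : Type u) (Z : Type v) [NormedAddCommGroup Z] [NormedSpace ℝ Z]
      (φ : ι → Z →L[ℝ] ℝ),
      (∀ i x, φ i x ≤ ‖x‖) →
      (∀ x : Z, ∀ ε : ℝ, 0 < ε → ∃ i, ‖x‖ - ε < φ i x) →
      (∀ x : Z, ‖x‖ = 1 → ∃ δ : ℝ, 0 < δ ∧ ∀ i, φ i x = 1 ∨ φ i x ≤ 1 - δ) →
      (∀ x : Z, ‖x‖ = 1 → {i | φ i x = 1}.Finite) →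
      MazurUlamProperty.{v, w} Z) ∧
    (∀ (Γ : Type u) (Z : Type v) [NormedAddCommGroup Z] [NormedSpace ℝ Z]
      (φ : Γ → Z →L[ℝ] ℝ),
      (∀ x : Z, IsLUB (Set.range fun γ => |φ γ x|) ‖x‖) →
      (∀ x : Z, ∀ ε : ℝ, 0 < ε → {γ | ε ≤ |φ γ x|}.Finite) →
      MazurUlamProperty.{v, w} Z) :=
  A0_Polyhedral.result.{u, v, w}

end Vale.Agent.Results.P084.A0000_Polyhedral
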