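import Vale.Agent.Results.P084.A0_Polyhedral
import Vale.Agent.Results.P084.A1_CombTsirelson
import Vale.Agent.Results.P084.A2_SchreierRealComplex
import Vale.Agent.Results.P084.A3_Sums

namespace Vale.Agent.Results.P084.A00_Combined

open Vale.Agent.P084

universe u v w

/-- Classes of spaces with the Mazur-Ulam property.
(1) polyhedral Banach spaces (Klee); (2) Banach spaces all of whose two-dimensional subspaces are
polygonal; (3) normed spaces with a norming family of functionals with finite contact and a gap at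
every unit vector; (4) normed subspaces of `c₀(Γ)`; (5) Tsirelson type spaces `T[θ, 𝓢]`;
(6), (7) real and complex Schreier spaces of all generalized Schreier families and their
`p`-convexifications; (8) `E ⊕_∞ F` with `E` strictly convex and `F` arbitrary; (9) `ℝ ⊕₁ F` with
`F` arbitrary; (10) linearly isometric copies. -/
theorem result :
    (∀ (Z : Type v) [NormedAddCommGroup Z] [NormedSpace ℝ Z] [CompleteSpace Z],
      (∀ E : Submodule ℝ Z, FiniteDimensional ℝ E →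
        ∃ s : Finset Z, convexHull ℝ (s : Set Z) = Metric.closedBall 0 1 ∩ (E : Set Z)) →
      MazurUlamProperty.{v, w} Z) ∧
    (∀ (Z : Type v) [NormedAddCommGroup Z] [NormedSpace ℝ Z] [CompleteSpace Z],
      (∀ x y : Z, ∃ s : Finset (Z →L[ℝ] ℝ), ∀ a b : ℝ,
        IsGreatest ((fun φ : Z →L[ℝ] ℝ => φ (a • x + b • y)) '' (s : Set (Z →L[ℝ] ℝ)))
          ‖a • x + b • y‖) →
      MazurUlamProperty.{v, w} Z) ∧
    (∀ (ι : Type u) (Z : Type v) [NormedAddCommGroup Z] [NormedSpace ℝ Z]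
      (φ : ι → Z →L[ℝ] ℝ),
      (∀ i x, φ i x ≤ ‖x‖) →
      (∀ x : Z, ∀ ε : ℝ, 0 < ε → ∃ i, ‖x‖ - ε < φ i x) →
      (∀ x : Z, ‖x‖ = 1 → ∃ δ : ℝ, 0 < δ ∧ ∀ i, φ i x = 1 ∨ φ i x ≤ 1 - δ) →
      (∀ x : Z, ‖x‖ = 1 → {i | φ i x = 1}.Finite) →
      MazurUlamProperty.{v, w} Z) ∧
    (∀ (Γ : Type u) (Z : Type v) [NormedAddCommGroup Z] [NormedSpace ℝ Z]
      (φ : Γ → Z →L[ℝ] ℝ),
      (∀ x : Z, IsLUB (Set.range fun γ => |φ γ x|) ‖x‖) →
      (∀ x : Z, ∀ ε : ℝ, 0 < ε → {γ | ε ≤ |φ γ x|}.Finite) →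
      MazurUlamProperty.{v, w} Z) ∧
    (∀ (𝓢 : Set (Finset ℕ+)) (θ : ℝ), (∀ i : ℕ+, {i} ∈ 𝓢) → (∀ F ∈ 𝓢, (1 : ℕ+) ∈ F → F = {1}) →
      0 ≤ θ → θ < 1 →
      (∃ (X : Type) (_ : NormedAddCommGroup X) (_ : NormedSpace ℝ X) (e : ℕ+ → X),
        CompleteSpace X ∧ IsTsirelsonSystem 𝓢 θ e) ∧
      ∀ (X : Type v) [NormedAddCommGroup X] [NormedSpace ℝ X] (e : ℕ+ → X),
        IsTsirelsonSystem 𝓢 θ e → MazurUlamProperty.{v, w} X) ∧
    (IsSchreierFamily {F : Finset ℕ+ | ∀ i ∈ F, F.card ≤ (i : ℕ)} ∧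
    ∀ (𝓕 : Set (Finset ℕ+)), IsSchreierFamily 𝓕 → ∀ p : ℝ, 1 ≤ p →
      ((∃ (X : Type) (_ : NormedAddCommGroup X) (_ : NormedSpace ℝ X) (e : ℕ+ → X),
          CompleteSpace X ∧ IsCombSystem 𝓕 p e) ∧
        ∀ (X : Type v) [NormedAddCommGroup X] [NormedSpace ℝ X] (e : ℕ+ → X),
          IsCombSystem 𝓕 p e → MazurUlamProperty.{v, w} X) ∧
      ((∃ (X : Type) (_ : NormedAddCommGroup X) (_ : NormedSpace ℂ X) (e : ℕ+ → X),
          CompleteSpace X ∧ IsCombSystemC 𝓕 p e) ∧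
        ∀ (X : Type v) [NormedAddCommGroup X] [NormedSpace ℂ X] (e : ℕ+ → X),
          IsCombSystemC 𝓕 p e → MazurUlamProperty.{v, w} X)) ∧
    (∀ (E : Type u) (F : Type v) [NormedAddCommGroup E] [NormedSpace ℝ E]
      [NormedAddCommGroup F] [NormedSpace ℝ F] [StrictConvexSpace ℝ E] [Nontrivial E]
      [Nontrivial F],
      (∀ z : E × F, ‖z‖ = max ‖z.1‖ ‖z.2‖) ∧
      MazurUlamProperty.{max u v, w} (E × F)) ∧
    (∀ (F : Type v) [NormedAddCommGroup F] [NormedSpace ℝ F],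
      (∀ z : WithLp 1 (ℝ × F), ‖z‖ = |z.fst| + ‖z.snd‖) ∧
      MazurUlamProperty.{v, w} (WithLp 1 (ℝ × F))) ∧
    (∀ (X' : Type u) (X : Type v) [NormedAddCommGroup X'] [NormedSpace ℝ X']
      [NormedAddCommGroup X] [NormedSpace ℝ X], (X' ≃ₗᵢ[ℝ] X) →
      MazurUlamProperty.{u, w} X' → MazurUlamProperty.{v, w} X) :=
  ⟨A0_Polyhedral.result.{u, v, w}.1, A0_Polyhedral.result.{u, v, w}.2.1,
    A0_Polyhedral.result.{u, v, w}.2.2.1, A0_Polyhedral.result.{u, v, w}.2.2.2,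
    A1_CombTsirelson.result.{u, v, w}.2.1, A2_SchreierRealComplex.result.{v, w},
    A3_Sums.result.{u, v, w}.1, A3_Sums.result.{u, v, w}.2.2.1, A3_Sums.result.{u, v, w}.2.2.2⟩

end Vale.Agent.Results.P084.A00_Combined
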