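import Vale.Agent.P084.Defs
import Vale.Agent.P084.CylMain
import Vale.Agent.P084.L1d

namespace Vale.Agent.Results.P084.B0_L1Sum

open Vale.Agent.P084

universe v w

/-- For an arbitrary real normed space `F`, both the `ℓ₁`-sum `ℝ ⊕₁ F` (norm `|t| + ‖u‖`) and the
`ℓ_∞`-sum `ℝ ⊕_∞ F` (norm `max |t| ‖u‖`) have the Mazur-Ulam property. -/
theorem result :
    (∀ (F : Type v) [NormedAddCommGroup F] [NormedSpace ℝ F],
      (∀ z : WithLp 1 (ℝ × F), ‖z‖ = |z.fst| + ‖z.snd‖) ∧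
      MazurUlamProperty.{v, w} (WithLp 1 (ℝ × F))) ∧
    (∀ (F : Type v) [NormedAddCommGroup F] [NormedSpace ℝ F],
      (∀ z : ℝ × F, ‖z‖ = max |z.1| ‖z.2‖) ∧
      MazurUlamProperty.{v, w} (ℝ × F)) :=
  ⟨fun F _ _ => ⟨fun z => nrm1 z.fst z.snd, l1_mup F⟩,
    fun F _ _ => ⟨fun z => nrm z.1 z.2, cyl_mup F⟩⟩

end Vale.Agent.Results.P084.B0_L1Sum
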