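import Vale.Agent.P084.Defs
import Vale.Agent.P084.CylMain

namespace Vale.Agent.Results.P084.B0_LineSupSum

open Vale.Agent.P084

universe v w

/-- For an arbitrary real normed space `F`, the product `ℝ × F` with the supremum norm
`‖(t, u)‖ = max |t| ‖u‖` has the Mazur-Ulam property. -/
theorem result (F : Type v) [NormedAddCommGroup F] [NormedSpace ℝ F] :
    MazurUlamProperty.{v, w} (ℝ × F) :=
  cyl_mup F

end Vale.Agent.Results.P084.B0_LineSupSum
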