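import Vale.Agent.P084.Defs
import Vale.Agent.P084.CylMain

namespace Vale.Agent.Results.P084.B0_Renorming

open Vale.Agent.P084

universe v w

/-- Every nonzero real Banach space is linearly homeomorphic to a real Banach space with the
Mazur-Ulam property (so it has an equivalent norm with that property). -/
theorem result (X : Type v) [NormedAddCommGroup X] [NormedSpace ℝ X] [CompleteSpace X]
    [Nontrivial X] :
    ∃ (X' : Type v) (_ : NormedAddCommGroup X') (_ : NormedSpace ℝ X'),
      CompleteSpace X' ∧ Nonempty (X ≃L[ℝ] X') ∧ MazurUlamProperty.{v, w} X' := by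
  obtain ⟨φ, hφ⟩ := exists_hyperplane_iso X
  have hcl : IsClosed ((LinearMap.ker φ.toLinearMap : Submodule ℝ X) : Set X) :=
    ContinuousLinearMap.isClosed_ker φ
  have hc : CompleteSpace (LinearMap.ker φ.toLinearMap) := hcl.completeSpace_coe
  exact ⟨ℝ × (LinearMap.ker φ.toLinearMap), inferInstance, inferInstance, inferInstance, hφ,
    cyl_mup _⟩

end Vale.Agent.Results.P084.B0_Renorming
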