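import Vale.Agent.P084.Defs
import Vale.Agent.P084.CylMain
import Vale.Agent.P084.ScInst

namespace Vale.Agent.Results.P084.B0_SupSums

open Vale.Agent.P084

universe u v w

/-- Mazur-Ulam property of sup-normed sums `E × F` with `F` an arbitrary normed space:
`E` the real line; `E` strictly convex and chord flat; in particular `E` strictly convex and
finite dimensional, or strictly convex with Frechet differentiable norm, or an inner product
space. -/
theorem result :
    (∀ (F : Type v) [NormedAddCommGroup F] [NormedSpace ℝ F],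
      MazurUlamProperty.{v, w} (ℝ × F)) ∧
    (∀ (E : Type u) (F : Type v) [NormedAddCommGroup E] [NormedSpace ℝ E]
      [NormedAddCommGroup F] [NormedSpace ℝ F] [StrictConvexSpace ℝ E] [Nontrivial E]
      [Nontrivial F],
      (∀ e₀ : E, ‖e₀‖ = 1 → ∃ c : ℝ, c < 1 ∧ ∃ ρ : ℝ, 0 < ρ ∧
        ∀ e' : E, ‖e'‖ = 1 → ‖e' - e₀‖ < ρ → 2 - ‖e₀ + e'‖ ≤ c * ‖e' - e₀‖) →
      MazurUlamProperty.{max u v, w} (E × F)) ∧
    (∀ (E : Type u) (F : Type v) [NormedAddCommGroup E] [NormedSpace ℝ E]
      [NormedAddCommGroup F] [NormedSpace ℝ F] [StrictConvexSpace ℝ E] [Nontrivial E]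
      [Nontrivial F] [FiniteDimensional ℝ E],
      MazurUlamProperty.{max u v, w} (E × F)) ∧
    (∀ (E : Type u) (F : Type v) [NormedAddCommGroup E] [NormedSpace ℝ E]
      [NormedAddCommGroup F] [NormedSpace ℝ F] [StrictConvexSpace ℝ E] [Nontrivial E]
      [Nontrivial F],
      (∀ e : E, ‖e‖ = 1 → DifferentiableAt ℝ (fun x : E => ‖x‖) e) →
      MazurUlamProperty.{max u v, w} (E × F)) ∧
    (∀ (H : Type u) (F : Type v) [NormedAddCommGroup H] [InnerProductSpace ℝ H]
      [NormedAddCommGroup F] [NormedSpace ℝ F] [Nontrivial H] [Nontrivial F],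
      MazurUlamProperty.{max u v, w} (H × F)) :=
  ⟨fun F _ _ => cyl_mup F,
    fun E F _ _ _ _ _ _ _ h => sc_mup E F h,
    fun E F _ _ _ _ _ _ _ _ => sc_mup E F chordFlat_of_finiteDimensional,
    fun E F _ _ _ _ _ _ _ h => sc_mup E F (chordFlat_of_differentiable h),
    fun H F _ _ _ _ _ _ => sc_mup H F chordFlat_of_inner⟩

end Vale.Agent.Results.P084.B0_SupSums
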