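import Vale.Agent.P084.Defs
import Vale.Agent.P084.CombDefs
import Vale.Agent.P084.Comb2
import Vale.Agent.P084.CombExist

namespace Vale.Agent.Results.P084.B1_SchreierClassical

open Vale.Agent.P084

universe v w

/-- The Schreier space (`p = 1`) and its `p`-convexifications exist as Banach spaces and have the
Mazur-Ulam property. -/
theorem result (p : ℝ) (hp : 1 ≤ p) :
    (∃ (X : Type) (_ : NormedAddCommGroup X) (_ : NormedSpace ℝ X) (e : ℕ+ → X),
      CompleteSpace X ∧ IsCombSystem {F : Finset ℕ+ | ∀ i ∈ F, F.card ≤ (i : ℕ)} p e) ∧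
    ∀ (X : Type v) [NormedAddCommGroup X] [NormedSpace ℝ X] (e : ℕ+ → X),
      IsCombSystem {F : Finset ℕ+ | ∀ i ∈ F, F.card ≤ (i : ℕ)} p e →
        MazurUlamProperty.{v, w} X := by
  have h1 : ({1} : Finset ℕ+) ∈ {F : Finset ℕ+ | ∀ i ∈ F, F.card ≤ (i : ℕ)} := by
    intro i hi
    rw [Finset.mem_singleton] at hi
    rw [hi]; simp
  refine ⟨exists_combSystem _ p ⟨_, h1⟩ hp, fun X _ _ e he => comb_mup _ hp 1 h1 ?_ e he⟩
  intro F hF h1
  have hF' : F.card ≤ 1 := by simpa using hF 1 h1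
  have hpos : 0 < F.card := Finset.card_pos.mpr ⟨1, h1⟩
  obtain ⟨x, hx⟩ := Finset.card_eq_one.mp (le_antisymm hF' hpos)
  rw [hx, Finset.mem_singleton] at h1
  rw [hx, h1]

end Vale.Agent.Results.P084.B1_SchreierClassical
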