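import Vale.Agent.P084.Defs
import Vale.Agent.P084.CombDefs
import Vale.Agent.P084.Comb2
import Vale.Agent.P084.CombExist
import Vale.Agent.P084.SchreierOne

namespace Vale.Agent.Results.P084.B2_SchreierAllOrders

open Vale.Agent.P084

universe v w

/-- The classical Schreier family is a generalized Schreier family, and for every generalized
Schreier family `𝓕` and every `p ≥ 1` the (`p`-convexified) Schreier space of `𝓕` exists as a
Banach space and has the Mazur-Ulam property. -/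
theorem result :
    IsSchreierFamily {F : Finset ℕ+ | ∀ i ∈ F, F.card ≤ (i : ℕ)} ∧
    ∀ (𝓕 : Set (Finset ℕ+)), IsSchreierFamily 𝓕 → ∀ p : ℝ, 1 ≤ p →
      (∃ (X : Type) (_ : NormedAddCommGroup X) (_ : NormedSpace ℝ X) (e : ℕ+ → X),
        CompleteSpace X ∧ IsCombSystem 𝓕 p e) ∧
      ∀ (X : Type v) [NormedAddCommGroup X] [NormedSpace ℝ X] (e : ℕ+ → X),
        IsCombSystem 𝓕 p e → MazurUlamProperty.{v, w} X :=
  ⟨classical_isSchreier, fun 𝓕 h𝓕 p hp =>
    ⟨exists_combSystem 𝓕 p ⟨_, h𝓕.iso_one.1⟩ hp,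
      fun _ _ _ e he => comb_mup 𝓕 hp 1 h𝓕.iso_one.1 h𝓕.iso_one.2 e he⟩⟩

end Vale.Agent.Results.P084.B2_SchreierAllOrders
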