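import Vale.Agent.P084.Defs
import Vale.Agent.P084.CombDefs
import Vale.Agent.P084.TsiDefs
import Vale.Agent.P084.Tsi

namespace Vale.Agent.Results.P084.B3_Tsirelson

open Vale.Agent.P084

universe v w

/-- The combinatorial Tsirelson spaces `T[θ, 𝓕]`, `𝓕` a generalized Schreier family, `0 < θ < 1`,
have the Mazur-Ulam property. -/
theorem result (𝓕 : Set (Finset ℕ+)) (h𝓕 : IsSchreierFamily 𝓕) (θ : ℝ) (hθ0 : 0 < θ)
    (hθ1 : θ < 1) (X : Type v) [NormedAddCommGroup X] [NormedSpace ℝ X] (e : ℕ+ → X)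
    (he : IsTsirelsonSystem 𝓕 θ e) : MazurUlamProperty.{v, w} X :=
  tsirelson_mup 𝓕 h𝓕.iso_one.2 h𝓕.singleton_mem hθ0.le hθ1 e he

end Vale.Agent.Results.P084.B3_Tsirelson
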