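import Vale.Agent.P084.Defs
import Vale.Agent.P084.CombDefs
import Vale.Agent.P084.CombExist
import Vale.Agent.P084.Poly.CombDefs2
import Vale.Agent.P084.Poly.CombMain
import Vale.Agent.P084.Poly.CombEx

namespace Vale.Agent.Results.P084.B4_Combinatorial

open Vale.Agent.P084

universe u v w

/-- For every compact hereditary family `𝓕` of finite subsets of an arbitrary index set `ι` (with at
least two elements), the real combinatorial Banach space `X_𝓕` exists and has the Mazur-Ulam
property.  The families of all sets with at most `k` elements and the classical Schreier family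
are examples. -/
theorem result :
    (∀ (ι : Type u) (k : ℕ), 1 ≤ k → IsCompactFamily {F : Finset ι | F.card ≤ k}) ∧
    IsCompactFamily {F : Finset ℕ+ | ∀ i ∈ F, F.card ≤ (i : ℕ)} ∧
    ∀ (ι : Type u) [Nontrivial ι] (𝓕 : Set (Finset ι)), IsCompactFamily 𝓕 →
      (∃ (X : Type u) (_ : NormedAddCommGroup X) (_ : NormedSpace ℝ X) (e : ι → X),
        CompleteSpace X ∧ IsCombSystem 𝓕 1 e) ∧
      ∀ (X : Type v) [NormedAddCommGroup X] [NormedSpace ℝ X] (e : ι → X),
        IsCombSystem 𝓕 1 e → MazurUlamProperty.{v, w} X :=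
  ⟨isCompactFamily_card, isCompactFamily_schreier, fun ι _ 𝓕 h𝓕 =>
    ⟨exists_combSystem 𝓕 1 ⟨_, h𝓕.single (Classical.arbitrary ι)⟩ le_rfl,
      fun _ _ _ e he => comb_poly_mup 𝓕 h𝓕 e he⟩⟩

end Vale.Agent.Results.P084.B4_Combinatorial
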