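import Vale.Agent.P084.Defs
import Vale.Agent.P084.PiInst

namespace Vale.Agent.Results.P084.PiStrictConvex

open Metric Vale.Agent.P084

universe u v w

theorem result {ι : Type u} [Fintype ι] [Nontrivial ι] {E : ι → Type v}
    [∀ i, NormedAddCommGroup (E i)] [∀ i, NormedSpace ℝ (E i)]
    [∀ i, StrictConvexSpace ℝ (E i)] [∀ i, Nontrivial (E i)] :
    MazurUlamProperty.{max u v, w} (∀ i, E i) := by
  classical
  intro Y _ _ f hf hs
  obtain ⟨i0, i1, hne⟩ := exists_pair_ne ι
  exact main_equiv piDecomp i0 i1 hne f hf hs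

end Vale.Agent.Results.P084.PiStrictConvex
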